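import Vale.Agent.P207.N4.Dim
import Vale.Agent.P207.N4.H266.TensG

/-!
# P207, line N3: the tensor of the stable subspaces seen from any level of the leaf
-/

open Set Filter Topology Metric MeasureTheory
open scoped ContDiff RealInnerProductSpace

noncomputable section

namespace Vale.Agent.P207.N4.H473

open Vale.Agent.P207.N3

variable [Dim]
open Ten

variable {Γ X B : Type} [Group Γ] [MetricSpace X] [ProperSpace X] [MulAction Γ X]
  [IsIsometricSMul Γ X] [TopologicalSpace B] [CompactSpace B] [T2Space B] [MulAction Γ B]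
  [ContinuousConstSMul Γ B] {L : Leaf Γ X B} (M : Metr L) {x z : X} {u : E2}

/-- The tensor at `e x u` from a frame `z` at any level over the point. -/
theorem NN_level (hz : L.em z = L.em x) (he : L.ep z = L.e x u) (hu : u ∈ ball (0 : E2) 3) :
    cj (fderiv ℝ (L.τ z x) 0) (Si M z) = NN M x u
      - ∫ s in (0 : ℝ)..(L.lv z - L.lv x), hor L (x, s) u := by
  obtain ⟨T, hT⟩ : ∃ T, T = L.lv z - L.lv x := ⟨_, rfl⟩
  obtain ⟨z₀, hz₀⟩ : ∃ z₀, z₀ = L.φ (-T) z := ⟨_, rfl⟩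
  have hzz : L.φ T z₀ = z := by rw [hz₀, ← L.φ_add, add_neg_cancel, L.φ_zero]
  have h : IsPt L x u z₀ := by
    refine ⟨?_, ?_, ?_⟩
    · rw [hz₀, L.em_φ, hz]
    · rw [hz₀, ep_φ, he]
    · rw [hz₀, L.lv_φ, hT]; ring
  have hchain : ∀ s, fderiv ℝ (L.τ (L.φ s z₀) x) 0 = fderiv ℝ (L.τ z₀ x) 0 ∘L Mf L z₀ s := by
    intro s
    have h0 : L.ep (L.φ s z₀) = L.ep z₀ := ep_φ L s z₀
    have h1 : L.τ (L.φ s z₀) z₀ 0 = 0 := tau_zero_of_ep h0
    rw [fderiv_tau_trans (x := L.φ s z₀) (y := z₀) (z := x) (L.em_φ s z₀) h.em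
      (dm_zero_of_ep h0) (by rw [h1]; exact h.dm hu), h1]
    rfl
  have hcont : Continuous fun s => cj (Mf L z₀ s) (ContinuousLinearMap.id ℝ E2) := by
    have h1 := Mf_cont M z₀
    have h2 : Continuous fun s => ContinuousLinearMap.adjoint (Mf L z₀ s) :=
      adjL.continuous.comp h1
    exact h1.clm_comp (continuous_const.clm_comp h2)
  have h5 : ∀ s : ℝ, cj (fderiv ℝ (L.τ z₀ x) 0)
      (cj (Mf L z₀ s) (ContinuousLinearMap.id ℝ E2)) = hor L (x, s) u := by
    intro s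
    rw [← cj_comp, ← hchain s, hor_eq h hu s]
  rw [← hT, ← hzz, hchain T, cj_comp, cj_int M z₀ T, cj_sub,
    cj_integral _ (hcont.intervalIntegrable 0 T), ← NN_eq M h hu]
  simp only [h5]

end Vale.Agent.P207.N4.H473
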